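import Vale.Agent.P202.Final
import Vale.Agent.P202.CoreT
import Vale.Agent.P202.Transfer

namespace Vale.Agent.Results.P202.AllEqualChar

open IsLocalRing Filter Topology Vale.Agent.P202

universe u

theorem result (R S : Type u)
    [CommRing R] [IsLocalRing R] [IsNoetherianRing R]
    [CommRing S] [IsLocalRing S] [IsNoetherianRing S]
    [Algebra R S] [IsLocalHom (algebraMap R S)] [Module.Flat R S]
    (hchar : ringChar R = ringChar (ResidueField R)) :
    Tendsto (hsSeq R) atTop (𝓝 (mult R)) ∧ Tendsto (hsSeq S) atTop (𝓝 (mult S)) ∧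
      mult R ≤ mult S := by
  rcases CharP.char_is_prime_or_zero (ResidueField R) (ringChar (ResidueField R)) with hp | hp
  · haveI : Fact (ringChar (ResidueField R)).Prime := ⟨hp⟩
    haveI : CharP R (ringChar (ResidueField R)) := hchar ▸ ringChar.charP R
    let ι : ZMod (ringChar (ResidueField R)) →+* R := ZMod.castHom (dvd_refl _) R
    refine ⟨(tendsto_hsSeq R _ ι).1, (tendsto_hsSeq S _ ((algebraMap R S).comp ι)).1, ?_⟩
    cases finite_or_infinite (ResidueField R) with
    | inl h =>
      refine mult_le_of_core R S _ ι fun K _ _ hK => ?_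
      obtain ⟨f⟩ := hK
      haveI : CharP K (ringChar (ResidueField R)) := charP_of_injective_ringHom f.injective _
      exact coreIneq_charP (ringChar (ResidueField R)) K
    | inr h =>
      exact mult_le_of_coreT (ringChar (ResidueField R)) R S
        fun l _ _ _ => coreIneqT_charP (ringChar (ResidueField R)) l
  · haveI : CharP (ResidueField R) 0 := hp ▸ ringChar.charP (ResidueField R)
    haveI : CharZero (ResidueField R) := CharP.charP_to_charZero _
    have hu : ∀ y : nonZeroDivisors ℤ, IsUnit (Int.castRingHom R y) := fun y => by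
      rw [← residue_ne_zero_iff_isUnit, eq_intCast, map_intCast, Int.cast_ne_zero]
      exact nonZeroDivisors.coe_ne_zero y
    let ι : ℚ →+* R := IsLocalization.lift hu
    refine ⟨(tendsto_hsSeq R ℚ ι).1, (tendsto_hsSeq S ℚ ((algebraMap R S).comp ι)).1,
      mult_le_of_core R S ℚ ι fun K _ _ hK => ?_⟩
    obtain ⟨f⟩ := hK
    haveI : CharZero K := charZero_of_injective_ringHom f.injective
    exact coreIneq_charZero K

end Vale.Agent.Results.P202.AllEqualChar
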