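import Vale.Agent.P202.Final

namespace Vale.Agent.Results.P202.CharPPerfect

open IsLocalRing Filter Topology Vale.Agent.P202

universe u

theorem result (p : ℕ) [Fact p.Prime] (R S : Type u)
    [CommRing R] [IsLocalRing R] [IsNoetherianRing R]
    [CommRing S] [IsLocalRing S] [IsNoetherianRing S]
    [Algebra R S] [IsLocalHom (algebraMap R S)] [Module.Flat R S]
    [CharP R p] [PerfectField (ResidueField R)] :
    Tendsto (hsSeq R) atTop (𝓝 (mult R)) ∧ Tendsto (hsSeq S) atTop (𝓝 (mult S)) ∧
      mult R ≤ mult S := by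
  let ι : ZMod p →+* R := ZMod.castHom (dvd_refl p) R
  refine ⟨(tendsto_hsSeq R (ZMod p) ι).1,
    (tendsto_hsSeq S (ZMod p) ((algebraMap R S).comp ι)).1,
    mult_le_of_core R S (ZMod p) ι fun K _ _ hK => ?_⟩
  obtain ⟨f⟩ := hK
  haveI : CharP K p := charP_of_injective_ringHom f.injective p
  exact coreIneq_charP p K

end Vale.Agent.Results.P202.CharPPerfect
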