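import Vale.Agent.P202.MxUniv

namespace Vale.Agent.Results.P202.Full

open IsLocalRing Filter Topology Vale.Agent.P202

universe u v

theorem result (R : Type u) (S : Type v)
    [CommRing R] [IsLocalRing R] [IsNoetherianRing R]
    [CommRing S] [IsLocalRing S] [IsNoetherianRing S]
    [Algebra R S] [IsLocalHom (algebraMap R S)] [Module.Flat R S] :
    Tendsto (hsSeq R) atTop (𝓝 (mult R)) ∧ Tendsto (hsSeq S) atTop (𝓝 (mult S)) ∧
      mult R ≤ mult S :=
  lech_general R S

end Vale.Agent.Results.P202.Full
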